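import Mathlib

namespace Vale.Agent.Results.P037.FewRowTypes

open Finset

/-- The set of ordered copies `(r1, r2, c1, c2)` of the 2 x 2 pattern `H` in the binary
`n x n` matrix `A`: rows `r1 < r2`, columns `c1 < c2`, and the four entries of `A`
at these positions are equal to the four entries of `H`. -/
def copies (H : Fin 2 → Fin 2 → Bool) {n : ℕ} (A : Fin n → Fin n → Bool) :
    Finset (Fin n × Fin n × Fin n × Fin n) :=
  univ.filter fun q =>
    q.1 < q.2.1 ∧ q.2.2.1 < q.2.2.2 ∧
      A q.1 q.2.2.1 = H 0 0 ∧ A q.1 q.2.2.2 = H 0 1 ∧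
      A q.2.1 q.2.2.1 = H 1 0 ∧ A q.2.1 q.2.2.2 = H 1 1

theorem two_cases (j : Fin 2) : j = 0 ∨ j = 1 := by
  revert j
  decide

/-- Sorting lemma: if `P` is the number of pairs `x < y` with `x` in `X` and `y` in `Y`,
then some set `Z` of at most `2 * sqrt P` indices meets every such pair. -/
theorem kill_pairs {n : ℕ} (X Y : Finset (Fin n)) :
    ∃ Z : Finset (Fin n),
      Z.card ≤ 2 * Nat.sqrt (((X ×ˢ Y).filter fun p => p.1 < p.2).card) ∧
      ∀ x ∈ X, ∀ y ∈ Y, x < y → x ∈ Z ∨ y ∈ Z := by
  classical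
  set P := ((X ×ˢ Y).filter fun p => p.1 < p.2).card with hP
  set m := Nat.sqrt P + 1 with hm
  set d : Fin n → ℕ := fun x => (Y.filter fun y => x < y).card with hd
  have hsum : ∑ x ∈ X, d x = P := by
    rw [hP, Finset.card_filter, Finset.sum_product]
    refine Finset.sum_congr rfl ?_
    intro x _
    rw [hd]
    simp only
    rw [Finset.card_filter]
  set Z1 := X.filter (fun x => m ≤ d x) with hZ1
  have h1 : Z1.card * m ≤ P := by
    have ha : Z1.card • m ≤ ∑ x ∈ Z1, d x := by
      apply Finset.card_nsmul_le_sum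
      intro x hx
      exact (Finset.mem_filter.mp hx).2
    have hb : ∑ x ∈ Z1, d x ≤ ∑ x ∈ X, d x :=
      Finset.sum_le_sum_of_subset (Finset.filter_subset _ _)
    have hc : Z1.card * m = Z1.card • m := by simp
    omega
  have hmm : P < m * m := Nat.lt_succ_sqrt P
  have hZ1c : Z1.card ≤ Nat.sqrt P := by
    have : Z1.card * m < m * m := lt_of_le_of_lt h1 hmm
    have h2 : Z1.card < m := Nat.lt_of_mul_lt_mul_right this
    omega
  by_cases hne : (X.filter (fun x => ¬ m ≤ d x)).Nonempty
  · set x0 := (X.filter (fun x => ¬ m ≤ d x)).min' hne with hx0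
    have hx0mem : x0 ∈ X.filter (fun x => ¬ m ≤ d x) := Finset.min'_mem _ hne
    have hx0d : d x0 < m := by
      have := (Finset.mem_filter.mp hx0mem).2
      omega
    refine ⟨Z1 ∪ (Y.filter fun y => x0 < y), ?_, ?_⟩
    · have hu := Finset.card_union_le Z1 (Y.filter fun y => x0 < y)
      have : (Y.filter fun y => x0 < y).card = d x0 := rfl
      omega
    · intro x hx y hy hxy
      by_cases hxm : m ≤ d x
      · left
        exact Finset.mem_union_left _ (Finset.mem_filter.mpr ⟨hx, hxm⟩)
      · right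
        have hle : x0 ≤ x := Finset.min'_le _ x (Finset.mem_filter.mpr ⟨hx, hxm⟩)
        exact Finset.mem_union_right _ (Finset.mem_filter.mpr ⟨hy, lt_of_le_of_lt hle hxy⟩)
  · refine ⟨Z1, by omega, ?_⟩
    intro x hx y _ _
    left
    by_contra hxZ
    apply hne
    refine ⟨x, Finset.mem_filter.mpr ⟨hx, ?_⟩⟩
    intro hxm
    exact hxZ (Finset.mem_filter.mpr ⟨hx, hxm⟩)

/-- **Polynomial removal for every open 2 x 2 pattern in hosts with few distinct rows.**
Let `H` be a binary 2 x 2 pattern such that for some value `b` every row and every column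
of `H` has an entry different from `b`, and let `A` be a binary `n x n` matrix with at most
`k` distinct rows.  Then there is an `H`-free matrix `B` such that the number `d` of entries
where `A` and `B` differ satisfies `d ^ 4 ≤ 16 * k ^ 8 * n ^ 4 * N`, where `N` is the number
of ordered copies of `H` in `A`. -/
theorem result (H : Fin 2 → Fin 2 → Bool) (b : Bool)
    (hrow : ∀ i, ∃ j, H i j ≠ b) (hcol : ∀ j, ∃ i, H i j ≠ b)
    (n k : ℕ) (A : Fin n → Fin n → Bool)
    (hk : (univ.image A).card ≤ k) :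
    ∃ B : Fin n → Fin n → Bool, copies H B = ∅ ∧
      ((univ.filter fun p : Fin n × Fin n => A p.1 p.2 ≠ B p.1 p.2).card) ^ 4
        ≤ 16 * k ^ 8 * n ^ 4 * (copies H A).card := by
  classical
  set T := univ.image A with hT
  set N := (copies H A).card with hN
  set s := Nat.sqrt (Nat.sqrt N) with hs
  set RX : (Fin n → Bool) → Finset (Fin n) := fun u => univ.filter fun r => A r = u with hRX
  set CX : (Fin n → Bool) × (Fin n → Bool) → Finset (Fin n) :=
    fun p => univ.filter fun c => p.1 c = H 0 0 ∧ p.2 c = H 1 0 with hCX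
  set CY : (Fin n → Bool) × (Fin n → Bool) → Finset (Fin n) :=
    fun p => univ.filter fun c => p.1 c = H 0 1 ∧ p.2 c = H 1 1 with hCY
  set P : (Fin n → Bool) × (Fin n → Bool) → ℕ :=
    fun p => (((RX p.1) ×ˢ (RX p.2)).filter fun q => q.1 < q.2).card with hPdef
  set Q : (Fin n → Bool) × (Fin n → Bool) → ℕ :=
    fun p => (((CX p) ×ˢ (CY p)).filter fun q => q.1 < q.2).card with hQdef
  -- every product of a row pair count and a column pair count is at most the copy count
  have hPQ : ∀ p, P p * Q p ≤ N := by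
    intro p
    have hcard : P p * Q p =
        ((((RX p.1) ×ˢ (RX p.2)).filter fun q => q.1 < q.2) ×ˢ
          (((CX p) ×ˢ (CY p)).filter fun q => q.1 < q.2)).card := by
      rw [Finset.card_product]
    rw [hcard, hN]
    apply Finset.card_le_card_of_injOn
      (fun w : (Fin n × Fin n) × (Fin n × Fin n) => (w.1.1, w.1.2, w.2.1, w.2.2))
    · intro w hw
      have hw' := Finset.mem_product.mp hw
      obtain ⟨hw1, hw2⟩ := hw'
      obtain ⟨hw1a, hw1b⟩ := Finset.mem_filter.mp hw1
      obtain ⟨hw2a, hw2b⟩ := Finset.mem_filter.mp hw2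
      obtain ⟨hx, hy⟩ := Finset.mem_product.mp hw1a
      obtain ⟨hc1, hc2⟩ := Finset.mem_product.mp hw2a
      have hx' : A w.1.1 = p.1 := (Finset.mem_filter.mp hx).2
      have hy' : A w.1.2 = p.2 := (Finset.mem_filter.mp hy).2
      have hc1' := (Finset.mem_filter.mp hc1).2
      have hc2' := (Finset.mem_filter.mp hc2).2
      rw [Finset.mem_coe]
      simp only [copies, Finset.mem_filter, Finset.mem_univ, true_and]
      refine ⟨hw1b, hw2b, ?_, ?_, ?_, ?_⟩
      · rw [hx']; exact hc1'.1
      · rw [hx']; exact hc2'.1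
      · rw [hy']; exact hc1'.2
      · rw [hy']; exact hc2'.2
    · intro w1 _ w2 _ h
      simp only [Prod.mk.injEq] at h
      obtain ⟨h1, h2, h3, h4⟩ := h
      exact Prod.ext (Prod.ext h1 h2) (Prod.ext h3 h4)
  have hR : ∀ p : (Fin n → Bool) × (Fin n → Bool), ∃ Z : Finset (Fin n),
      Z.card ≤ 2 * Nat.sqrt (P p) ∧
      ∀ x ∈ RX p.1, ∀ y ∈ RX p.2, x < y → x ∈ Z ∨ y ∈ Z :=
    fun p => kill_pairs (RX p.1) (RX p.2)
  have hC : ∀ p : (Fin n → Bool) × (Fin n → Bool), ∃ Z : Finset (Fin n),
      Z.card ≤ 2 * Nat.sqrt (Q p) ∧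
      ∀ x ∈ CX p, ∀ y ∈ CY p, x < y → x ∈ Z ∨ y ∈ Z :=
    fun p => kill_pairs (CX p) (CY p)
  choose ZR hZRc hZRk using hR
  choose ZC hZCc hZCk using hC
  set SR : (Fin n → Bool) × (Fin n → Bool) → Finset (Fin n) :=
    fun p => if P p ≤ Q p then ZR p else ∅ with hSR
  set SC : (Fin n → Bool) × (Fin n → Bool) → Finset (Fin n) :=
    fun p => if P p ≤ Q p then ∅ else ZC p with hSC
  have hcard : ∀ p, (SR p).card + (SC p).card ≤ 2 * s := by
    intro p
    by_cases hpq : P p ≤ Q p
    · have h1 : SR p = ZR p := by simp [hSR, hpq]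
      have h2 : SC p = ∅ := by simp [hSC, hpq]
      rw [h1, h2, Finset.card_empty, add_zero]
      have hPP : P p * P p ≤ N := le_trans (Nat.mul_le_mul_left _ hpq) (hPQ p)
      have h3 : P p ≤ Nat.sqrt N := Nat.le_sqrt.mpr hPP
      have h4 : Nat.sqrt (P p) ≤ s := Nat.sqrt_le_sqrt h3
      have := hZRc p
      omega
    · have h1 : SR p = ∅ := by simp [hSR, hpq]
      have h2 : SC p = ZC p := by simp [hSC, hpq]
      rw [h1, h2, Finset.card_empty, zero_add]
      have hqp : Q p ≤ P p := by omega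
      have hQQ : Q p * Q p ≤ N := le_trans (Nat.mul_le_mul_right _ hqp) (hPQ p)
      have h3 : Q p ≤ Nat.sqrt N := Nat.le_sqrt.mpr hQQ
      have h4 : Nat.sqrt (Q p) ≤ s := Nat.sqrt_le_sqrt h3
      have := hZCc p
      omega
  set Z := (T ×ˢ T).biUnion SR with hZ
  set Z' := (T ×ˢ T).biUnion SC with hZ'
  have hZZ : Z.card + Z'.card ≤ k ^ 2 * (2 * s) := by
    have h1 : Z.card ≤ ∑ p ∈ T ×ˢ T, (SR p).card := Finset.card_biUnion_le
    have h2 : Z'.card ≤ ∑ p ∈ T ×ˢ T, (SC p).card := Finset.card_biUnion_le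
    have h3 : ∑ p ∈ T ×ˢ T, ((SR p).card + (SC p).card) ≤ ∑ _p ∈ T ×ˢ T, 2 * s :=
      Finset.sum_le_sum (fun p _ => hcard p)
    rw [Finset.sum_add_distrib] at h3
    rw [Finset.sum_const, Finset.card_product, smul_eq_mul] at h3
    have h4 : T.card * T.card * (2 * s) ≤ k ^ 2 * (2 * s) := by
      apply Nat.mul_le_mul_right
      have : T.card * T.card ≤ k * k := Nat.mul_le_mul hk hk
      calc T.card * T.card ≤ k * k := this
        _ = k ^ 2 := by ring
    omega
  refine ⟨fun r c => if r ∈ Z ∨ c ∈ Z' then b else A r c, ?_, ?_⟩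
  · -- the new matrix has no copy
    apply Finset.eq_empty_of_forall_notMem
    rintro ⟨r1, r2, c1, c2⟩ hq
    simp only [copies, Finset.mem_filter, Finset.mem_univ, true_and] at hq
    obtain ⟨hr, hc, h00, h01, h10, h11⟩ := hq
    have hr1 : r1 ∉ Z := by
      intro hmem
      obtain ⟨j, hj⟩ := hrow 0
      rcases two_cases j with rfl | rfl
      · apply hj
        rw [← h00]
        simp [hmem]
      · apply hj
        rw [← h01]
        simp [hmem]
    have hr2 : r2 ∉ Z := by
      intro hmem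
      obtain ⟨j, hj⟩ := hrow 1
      rcases two_cases j with rfl | rfl
      · apply hj
        rw [← h10]
        simp [hmem]
      · apply hj
        rw [← h11]
        simp [hmem]
    have hc1 : c1 ∉ Z' := by
      intro hmem
      obtain ⟨i, hi⟩ := hcol 0
      rcases two_cases i with rfl | rfl
      · apply hi
        rw [← h00]
        simp [hmem]
      · apply hi
        rw [← h10]
        simp [hmem]
    have hc2 : c2 ∉ Z' := by
      intro hmem
      obtain ⟨i, hi⟩ := hcol 1
      rcases two_cases i with rfl | rfl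
      · apply hi
        rw [← h01]
        simp [hmem]
      · apply hi
        rw [← h11]
        simp [hmem]
    simp only [hr1, hr2, hc1, hc2, or_self, if_false] at h00 h01 h10 h11
    set p : (Fin n → Bool) × (Fin n → Bool) := (A r1, A r2) with hp
    have hpT : p ∈ T ×ˢ T := by
      apply Finset.mem_product.mpr
      exact ⟨Finset.mem_image_of_mem _ (Finset.mem_univ _),
        Finset.mem_image_of_mem _ (Finset.mem_univ _)⟩
    have hx : r1 ∈ RX p.1 := by simp [hRX, hp]
    have hy : r2 ∈ RX p.2 := by simp [hRX, hp]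
    have hcx : c1 ∈ CX p := by simp [hCX, hp, h00, h10]
    have hcy : c2 ∈ CY p := by simp [hCY, hp, h01, h11]
    by_cases hpq : P p ≤ Q p
    · have h1 : SR p = ZR p := by simp [hSR, hpq]
      have hsub : ZR p ⊆ Z := by
        rw [← h1]
        exact Finset.subset_biUnion_of_mem SR hpT
      rcases hZRk p r1 hx r2 hy hr with h | h
      · exact hr1 (hsub h)
      · exact hr2 (hsub h)
    · have h2 : SC p = ZC p := by simp [hSC, hpq]
      have hsub : ZC p ⊆ Z' := by
        rw [← h2]
        exact Finset.subset_biUnion_of_mem SC hpT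
      rcases hZCk p c1 hcx c2 hcy hc with h | h
      · exact hc1 (hsub h)
      · exact hc2 (hsub h)
  · -- few entries were changed
    have hsub : (univ.filter fun p : Fin n × Fin n =>
        A p.1 p.2 ≠ (if p.1 ∈ Z ∨ p.2 ∈ Z' then b else A p.1 p.2)) ⊆
        (Z ×ˢ (univ : Finset (Fin n))) ∪ ((univ : Finset (Fin n)) ×ˢ Z') := by
      intro p hp
      have hp' := (Finset.mem_filter.mp hp).2
      by_cases h1 : p.1 ∈ Z
      · exact Finset.mem_union_left _ (Finset.mem_product.mpr ⟨h1, Finset.mem_univ _⟩)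
      · by_cases h2 : p.2 ∈ Z'
        · exact Finset.mem_union_right _ (Finset.mem_product.mpr ⟨Finset.mem_univ _, h2⟩)
        · exfalso
          apply hp'
          simp [h1, h2]
    have hle : (univ.filter fun p : Fin n × Fin n =>
        A p.1 p.2 ≠ (if p.1 ∈ Z ∨ p.2 ∈ Z' then b else A p.1 p.2)).card
        ≤ n * (k ^ 2 * (2 * s)) := by
      have h1 := Finset.card_le_card hsub
      have h2 := Finset.card_union_le (Z ×ˢ (univ : Finset (Fin n)))
        ((univ : Finset (Fin n)) ×ˢ Z')
      rw [Finset.card_product, Finset.card_product, Finset.card_univ, Fintype.card_fin] at h2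
      have h3 : Z.card * n + n * Z'.card = n * (Z.card + Z'.card) := by ring
      have h4 : n * (Z.card + Z'.card) ≤ n * (k ^ 2 * (2 * s)) := Nat.mul_le_mul_left _ hZZ
      omega
    have hs4 : s ^ 4 ≤ N := by
      have h1 : s ^ 2 ≤ Nat.sqrt N := Nat.sqrt_le' (Nat.sqrt N)
      have h2 : Nat.sqrt N ^ 2 ≤ N := Nat.sqrt_le' N
      calc s ^ 4 = (s ^ 2) ^ 2 := by ring
        _ ≤ Nat.sqrt N ^ 2 := Nat.pow_le_pow_left h1 2
        _ ≤ N := h2
    calc ((univ.filter fun p : Fin n × Fin n =>
        A p.1 p.2 ≠ (if p.1 ∈ Z ∨ p.2 ∈ Z' then b else A p.1 p.2)).card) ^ 4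
        ≤ (n * (k ^ 2 * (2 * s))) ^ 4 := Nat.pow_le_pow_left hle 4
      _ = 16 * k ^ 8 * n ^ 4 * s ^ 4 := by ring
      _ ≤ 16 * k ^ 8 * n ^ 4 * N := Nat.mul_le_mul_left _ hs4

end Vale.Agent.Results.P037.FewRowTypes
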