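import Mathlib
import Vale.Agent.Lib.P037.Final
import Vale.Agent.Lib.P037.Mixing

namespace Vale.Agent.Results.P037.IdentityPattern

open Finset
open Vale.Agent.Results.P037.FewRowTypes (copies)
open Vale.Agent.Lib.P037 (I2)

/-- The copies of the identity pattern, written out. -/
theorem copies_I2 {n : ℕ} (B : Fin n → Fin n → Bool) :
    copies I2 B = univ.filter fun t : Fin n × Fin n × Fin n × Fin n =>
      t.1 < t.2.1 ∧ t.2.2.1 < t.2.2.2 ∧ B t.1 t.2.2.1 = true ∧ B t.1 t.2.2.2 = false ∧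
        B t.2.1 t.2.2.1 = false ∧ B t.2.1 t.2.2.2 = true := by
  have e00 : I2 0 0 = true := by decide
  have e01 : I2 0 1 = false := by decide
  have e10 : I2 1 0 = false := by decide
  have e11 : I2 1 1 = true := by decide
  unfold copies
  simp only [e00, e01, e10, e11]

/-- Natural-number form: if every identity-free matrix differs from `A` in at least
`n ^ 2 / q` entries, then `A` contains at least `n ^ 4 / (2 ^ 192 * q ^ 44)` ordered copies
of the 2 x 2 identity pattern. -/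
theorem nat_form (n q : ℕ) (hq : 1 ≤ q) (A : Fin n → Fin n → Bool)
    (hfar : ∀ B : Fin n → Fin n → Bool,
      (∀ r1 r2 c1 c2 : Fin n, r1 < r2 → c1 < c2 →
        ¬ (B r1 c1 = true ∧ B r1 c2 = false ∧ B r2 c1 = false ∧ B r2 c2 = true)) →
      n ^ 2 ≤ q * (univ.filter fun p : Fin n × Fin n => A p.1 p.2 ≠ B p.1 p.2).card) :
    n ^ 4 ≤ 2 ^ 192 * q ^ 44 *
      (univ.filter fun t : Fin n × Fin n × Fin n × Fin n =>
        t.1 < t.2.1 ∧ t.2.2.1 < t.2.2.2 ∧ A t.1 t.2.2.1 = true ∧ A t.1 t.2.2.2 = false ∧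
          A t.2.1 t.2.2.1 = false ∧ A t.2.1 t.2.2.2 = true).card := by
  rw [← copies_I2 A]
  apply Vale.Agent.Lib.P037.identity_removal_of_mix n q hq A
    (fun D hD => Vale.Agent.Lib.P037.mix_le A D hD)
  intro B hB
  apply hfar B
  intro r1 r2 c1 c2 hr hc h
  have hmem : (r1, r2, c1, c2) ∈ copies I2 B := by
    rw [copies_I2 B]
    exact Finset.mem_filter.mpr ⟨Finset.mem_univ _, hr, hc, h.1, h.2.1, h.2.2.1, h.2.2.2⟩
  rw [hB] at hmem
  exact absurd hmem (Finset.notMem_empty _)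

/-- **Polynomial removal lemma for the 2 x 2 identity pattern in arbitrary ordered binary
matrices.**  Let `A` be a binary `n x n` matrix and `0 < ε ≤ 1`.  Suppose `A` is `ε`-far from
identity-free: every binary `n x n` matrix `B` without an ordered copy of the pattern
`1 0 / 0 1` (rows `r1 < r2`, columns `c1 < c2`, entries `1, 0, 0, 1`) differs from `A` in at
least `ε * n ^ 2` entries.  Then the number of ordered copies of the pattern in `A` is at
least `ε ^ 44 * n ^ 4 / 2 ^ 236`. -/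
theorem result (n : ℕ) (ε : ℝ) (hε : 0 < ε) (hε1 : ε ≤ 1) (A : Fin n → Fin n → Bool)
    (hfar : ∀ B : Fin n → Fin n → Bool,
      (∀ r1 r2 c1 c2 : Fin n, r1 < r2 → c1 < c2 →
        ¬ (B r1 c1 = true ∧ B r1 c2 = false ∧ B r2 c1 = false ∧ B r2 c2 = true)) →
      ε * (n : ℝ) ^ 2 ≤
        ((univ.filter fun p : Fin n × Fin n => A p.1 p.2 ≠ B p.1 p.2).card : ℝ)) :
    ε ^ 44 * (n : ℝ) ^ 4 ≤ 2 ^ 236 *
      ((univ.filter fun t : Fin n × Fin n × Fin n × Fin n =>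
        t.1 < t.2.1 ∧ t.2.2.1 < t.2.2.2 ∧ A t.1 t.2.2.1 = true ∧ A t.1 t.2.2.2 = false ∧
          A t.2.1 t.2.2.1 = false ∧ A t.2.1 t.2.2.2 = true).card : ℝ) := by
  set q : ℕ := ⌈1 / ε⌉₊ with hqdef
  have h1ε : 1 ≤ 1 / ε := by
    rw [le_div_iff₀ hε]
    linarith
  have hq1 : (1 / ε) ≤ (q : ℝ) := Nat.le_ceil _
  have hq2 : (q : ℝ) < 1 / ε + 1 := Nat.ceil_lt_add_one (by positivity)
  have hq : 1 ≤ q := by
    have : (1 : ℝ) ≤ (q : ℝ) := le_trans h1ε hq1
    exact_mod_cast this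
  have hnat := nat_form n q hq A (by
    intro B hB
    have h := hfar B hB
    have h2 : (n : ℝ) ^ 2 ≤ (q : ℝ) *
        ((univ.filter fun p : Fin n × Fin n => A p.1 p.2 ≠ B p.1 p.2).card : ℝ) := by
      have hd0 : (0 : ℝ) ≤
          ((univ.filter fun p : Fin n × Fin n => A p.1 p.2 ≠ B p.1 p.2).card : ℝ) :=
        Nat.cast_nonneg _
      calc (n : ℝ) ^ 2 = (1 / ε) * (ε * (n : ℝ) ^ 2) := by field_simp
        _ ≤ (1 / ε) * ((univ.filter fun p : Fin n × Fin n => A p.1 p.2 ≠ B p.1 p.2).card : ℝ) :=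
            mul_le_mul_of_nonneg_left h (by positivity)
        _ ≤ (q : ℝ) * ((univ.filter fun p : Fin n × Fin n => A p.1 p.2 ≠ B p.1 p.2).card : ℝ) :=
            mul_le_mul_of_nonneg_right hq1 hd0
    exact_mod_cast h2)
  have hreal : (n : ℝ) ^ 4 ≤ 2 ^ 192 * (q : ℝ) ^ 44 *
      ((univ.filter fun t : Fin n × Fin n × Fin n × Fin n =>
        t.1 < t.2.1 ∧ t.2.2.1 < t.2.2.2 ∧ A t.1 t.2.2.1 = true ∧ A t.1 t.2.2.2 = false ∧
          A t.2.1 t.2.2.1 = false ∧ A t.2.1 t.2.2.2 = true).card : ℝ) := by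
    exact_mod_cast hnat
  have hqε : ε * (q : ℝ) ≤ 2 := by
    have : ε * (q : ℝ) ≤ ε * (1 / ε + 1) := mul_le_mul_of_nonneg_left (le_of_lt hq2) hε.le
    have e : ε * (1 / ε + 1) = 1 + ε := by field_simp
    linarith
  have hpow : ε ^ 44 * (q : ℝ) ^ 44 ≤ 2 ^ 44 := by
    rw [← mul_pow]
    exact pow_le_pow_left₀ (by positivity) hqε 44
  set Nr : ℝ := ((univ.filter fun t : Fin n × Fin n × Fin n × Fin n =>
        t.1 < t.2.1 ∧ t.2.2.1 < t.2.2.2 ∧ A t.1 t.2.2.1 = true ∧ A t.1 t.2.2.2 = false ∧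
          A t.2.1 t.2.2.1 = false ∧ A t.2.1 t.2.2.2 = true).card : ℝ) with hNr
  have hNr0 : 0 ≤ Nr := Nat.cast_nonneg _
  calc ε ^ 44 * (n : ℝ) ^ 4 ≤ ε ^ 44 * (2 ^ 192 * (q : ℝ) ^ 44 * Nr) :=
        mul_le_mul_of_nonneg_left hreal (by positivity)
    _ = 2 ^ 192 * (ε ^ 44 * (q : ℝ) ^ 44) * Nr := by ring
    _ ≤ 2 ^ 192 * 2 ^ 44 * Nr := by
        apply mul_le_mul_of_nonneg_right _ hNr0
        exact mul_le_mul_of_nonneg_left hpow (by positivity)
    _ = 2 ^ 236 * Nr := by norm_num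

end Vale.Agent.Results.P037.IdentityPattern
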