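import Mathlib
import Vale.Agent.Lib.P037.Blowup
import Vale.Agent.Lib.P037.ERemoval

/-!
# P037: polynomial removal for all 2 x 2 patterns, closure under repeating a row or a
column, and all block patterns of every size

Entries are Booleans.  A pattern is a `k × l` matrix `H : Fin k → Fin l → Bool`; an ordered
copy of `H` in an `n × n` matrix `A` is a pair of strictly increasing maps
`ρ : Fin k → Fin n` (rows) and `γ : Fin l → Fin n` (columns) with `A (ρ i) (γ j) = H i j`.
-/

namespace Vale.Agent.Results.P037.AllBlockPatterns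

open Finset Vale.Agent.Lib.P037 Vale.Agent.Lib.P037.Blowup

/-- `PolyRemoval H`: the pattern `H` has a polynomial removal bound.  There are an exponent
`C` and a constant `K > 0` such that for every `n`, every `0 < ε ≤ 1` and every binary
`n × n` matrix `A`: if every `n × n` matrix `B` without an ordered copy of `H` differs from
`A` in at least `ε n^2` entries, then `ε^C n^(k+l) ≤ K * N`, where `N` is the number of
ordered copies of `H` in `A`. -/
def PolyRemoval {k l : ℕ} (H : Fin k → Fin l → Bool) : Prop :=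
  ∃ (C : ℕ) (K : ℝ), 0 < K ∧ ∀ (n : ℕ) (ε : ℝ), 0 < ε → ε ≤ 1 → ∀ A : Fin n → Fin n → Bool,
    (∀ B : Fin n → Fin n → Bool,
      (¬ ∃ (ρ : Fin k → Fin n) (γ : Fin l → Fin n), StrictMono ρ ∧ StrictMono γ ∧
        ∀ i j, B (ρ i) (γ j) = H i j) →
      ε * (n : ℝ) ^ 2 ≤
        ((univ.filter fun c : Fin n × Fin n => A c.1 c.2 ≠ B c.1 c.2).card : ℝ)) →
    ε ^ C * (n : ℝ) ^ (k + l) ≤ K *
      ((univ.filter fun t : (Fin k → Fin n) × (Fin l → Fin n) =>
        StrictMono t.1 ∧ StrictMono t.2 ∧ ∀ i j, A (t.1 i) (t.2 j) = H i j).card : ℝ)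

theorem polyRemoval_of {k l : ℕ} {H : Fin k → Fin l → Bool}
    (h : ∃ (C : ℕ) (K : ℝ), 1 ≤ K ∧ PRemoval C K H) : PolyRemoval H := by
  obtain ⟨C, K, hK, hR⟩ := h
  refine ⟨C, K, by linarith, ?_⟩
  intro n ε hε hε1 A hfar
  exact hR n ε hε hε1 A (fun B hB => hfar B (fun ⟨ρ, γ, hρ, hγ, hc⟩ => hB ρ γ hρ hγ hc))

theorem of_polyRemoval {k l : ℕ} {H : Fin k → Fin l → Bool} (h : PolyRemoval H) :
    ∃ (C : ℕ) (K : ℝ), 1 ≤ K ∧ PRemoval C K H := by
  obtain ⟨C, K, _, hR⟩ := h
  refine ⟨C, max K 1, le_max_right _ _, ?_⟩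
  intro n ε hε hε1 A hfar
  have h1 := hR n ε hε hε1 A
    (fun B hB => hfar B (fun ρ γ hρ hγ hc => hB ⟨ρ, γ, hρ, hγ, hc⟩))
  exact le_trans h1 (mul_le_mul_of_nonneg_right (le_max_left _ _) (Nat.cast_nonneg _))

/-- **Polynomial removal for block patterns.**
(1) Every `2 × 2` pattern has a polynomial removal bound.
(2) If `H` has one, so has every pattern `H'` with one more row that consists of the rows
`0, …, p` of `H` followed by the rows `p, …, k - 1` of `H` (row `p` is repeated).
(3) The same for a repeated column.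
(4) Hence every `k × l` block pattern `H i j = h [p ≤ i] [q ≤ j]`, `1 ≤ p < k`, `1 ≤ q < l`
(one row cut and one column cut, four constant blocks filled by an arbitrary `2 × 2` pattern
`h`), has a polynomial removal bound. -/
theorem result :
    (∀ H : Fin 2 → Fin 2 → Bool, PolyRemoval H) ∧
    (∀ (k l : ℕ) (H : Fin k → Fin l → Bool) (H' : Fin (k + 1) → Fin l → Bool) (p : Fin k),
      (∀ i : Fin k, i ≤ p → ∀ j, H' i.castSucc j = H i j) →
      (∀ i : Fin k, p ≤ i → ∀ j, H' i.succ j = H i j) →
      PolyRemoval H → PolyRemoval H') ∧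
    (∀ (k l : ℕ) (H : Fin k → Fin l → Bool) (H' : Fin k → Fin (l + 1) → Bool) (q : Fin l),
      (∀ j : Fin l, j ≤ q → ∀ i, H' i j.castSucc = H i j) →
      (∀ j : Fin l, q ≤ j → ∀ i, H' i j.succ = H i j) →
      PolyRemoval H → PolyRemoval H') ∧
    (∀ (h : Bool → Bool → Bool) (k l p q : ℕ), 1 ≤ p → p < k → 1 ≤ q → q < l →
      PolyRemoval (fun (i : Fin k) (j : Fin l) =>
        h (decide (p ≤ i.val)) (decide (q ≤ j.val)))) := by
  have hblock : ∀ (h : Bool → Bool → Bool) (k l p q : ℕ), 1 ≤ p → p < k → 1 ≤ q → q < l →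
      PolyRemoval (fun (i : Fin k) (j : Fin l) =>
        h (decide (p ≤ i.val)) (decide (q ≤ j.val))) := by
    intro h k l p q hp hpk hq hql
    exact polyRemoval_of (block_removal 44 (2 ^ 236) (by norm_num)
      (fun h11 h12 h21 h22 => removal_two_by_two h11 h12 h21 h22) h k l p q hp hpk hq hql)
  refine ⟨?_, ?_, ?_, hblock⟩
  · intro H
    have h1 := hblock (fun a b => H (if a then 1 else 0) (if b then 1 else 0)) 2 2 1 1
      (le_refl _) (by norm_num) (le_refl _) (by norm_num)
    have h2 : (fun (i : Fin 2) (j : Fin 2) =>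
        (fun a b => H (if a then 1 else 0) (if b then 1 else 0))
          (decide (1 ≤ i.val)) (decide (1 ≤ j.val))) = H := by
      funext i j
      fin_cases i <;> fin_cases j <;> rfl
    rw [h2] at h1
    exact h1
  · intro k l H H' p h1 h2 hH
    obtain ⟨C, K, hK, hR⟩ := of_polyRemoval hH
    refine polyRemoval_of ⟨_, _, one_le_pow₀ (by linarith), removal_dupRow hK H p H' ?_ hR⟩
    intro i j
    have hi := i.isLt
    have hp := p.isLt
    by_cases hip : i.val ≤ p.val
    · obtain ⟨i', rfl⟩ : ∃ i' : Fin k, i = i'.castSucc := ⟨⟨i.val, by omega⟩, Fin.ext rfl⟩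
      have hip' : i'.val ≤ p.val := by simpa using hip
      have e2 : dupIdx p i'.castSucc = i' := by
        apply Fin.ext
        simp only [dupIdx, Fin.val_castSucc]
        rw [if_pos hip']
      rw [e2]
      exact h1 i' (by rw [Fin.le_def]; exact hip') j
    · obtain ⟨i', rfl⟩ : ∃ i' : Fin k, i = i'.succ :=
        ⟨⟨i.val - 1, by omega⟩, by apply Fin.ext; simp only [Fin.val_succ]; omega⟩
      have hip' : ¬ (i'.val + 1 ≤ p.val) := by simpa using hip
      have e2 : dupIdx p i'.succ = i' := by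
        apply Fin.ext
        simp only [dupIdx, Fin.val_succ]
        rw [if_neg hip']
        omega
      rw [e2]
      exact h2 i' (by rw [Fin.le_def]; omega) j
  · intro k l H H' q h1 h2 hH
    obtain ⟨C, K, hK, hR⟩ := of_polyRemoval hH
    refine polyRemoval_of ⟨_, _, one_le_pow₀ (by linarith), removal_dupCol hK H q H' ?_ hR⟩
    intro i j
    have hj := j.isLt
    have hq := q.isLt
    by_cases hjq : j.val ≤ q.val
    · obtain ⟨j', rfl⟩ : ∃ j' : Fin l, j = j'.castSucc := ⟨⟨j.val, by omega⟩, Fin.ext rfl⟩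
      have hjq' : j'.val ≤ q.val := by simpa using hjq
      have e2 : dupIdx q j'.castSucc = j' := by
        apply Fin.ext
        simp only [dupIdx, Fin.val_castSucc]
        rw [if_pos hjq']
      rw [e2]
      exact h1 j' (by rw [Fin.le_def]; exact hjq') i
    · obtain ⟨j', rfl⟩ : ∃ j' : Fin l, j = j'.succ :=
        ⟨⟨j.val - 1, by omega⟩, by apply Fin.ext; simp only [Fin.val_succ]; omega⟩
      have hjq' : ¬ (j'.val + 1 ≤ q.val) := by simpa using hjq
      have e2 : dupIdx q j'.succ = j' := by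
        apply Fin.ext
        simp only [dupIdx, Fin.val_succ]
        rw [if_neg hjq']
        omega
      rw [e2]
      exact h2 j' (by rw [Fin.le_def]; omega) i

end Vale.Agent.Results.P037.AllBlockPatterns
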