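import Mathlib
import Vale.Agent.Lib.P037.Blowup
import Vale.Agent.Lib.P037.ERemoval
import Vale.Agent.Lib.P037.CMFamily
import Vale.Agent.Lib.P037.CMFinal

/-!
# P037: polynomial removal for all patterns made of two complementary blocks of equal rows
(or of equal columns)

Entries are Booleans.  A pattern is a `k × l` matrix `H : Fin k → Fin l → Bool`; an ordered
copy of `H` in an `n × n` matrix `A` is a pair of strictly increasing maps
`ρ : Fin k → Fin n` (rows) and `γ : Fin l → Fin n` (columns) with `A (ρ i) (γ j) = H i j`.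
-/

namespace Vale.Agent.Results.P037.AllComplementaryRows

open Finset Vale.Agent.Lib.P037 Vale.Agent.Lib.P037.Blowup Vale.Agent.Lib.P037.CM

/-- `PolyRemoval H`: the pattern `H` has a polynomial removal bound.  There are an exponent
`C` and a constant `K > 0` such that for every `n`, every `0 < ε ≤ 1` and every binary
`n × n` matrix `A`: if every `n × n` matrix `B` without an ordered copy of `H` differs from
`A` in at least `ε n^2` entries, then `ε^C n^(k+l) ≤ K * N`, where `N` is the number of
ordered copies of `H` in `A`. -/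
def PolyRemoval {k l : ℕ} (H : Fin k → Fin l → Bool) : Prop :=
  ∃ (C : ℕ) (K : ℝ), 0 < K ∧ ∀ (n : ℕ) (ε : ℝ), 0 < ε → ε ≤ 1 → ∀ A : Fin n → Fin n → Bool,
    (∀ B : Fin n → Fin n → Bool,
      (¬ ∃ (ρ : Fin k → Fin n) (γ : Fin l → Fin n), StrictMono ρ ∧ StrictMono γ ∧
        ∀ i j, B (ρ i) (γ j) = H i j) →
      ε * (n : ℝ) ^ 2 ≤
        ((univ.filter fun c : Fin n × Fin n => A c.1 c.2 ≠ B c.1 c.2).card : ℝ)) →
    ε ^ C * (n : ℝ) ^ (k + l) ≤ K *
      ((univ.filter fun t : (Fin k → Fin n) × (Fin l → Fin n) =>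
        StrictMono t.1 ∧ StrictMono t.2 ∧ ∀ i j, A (t.1 i) (t.2 j) = H i j).card : ℝ)

theorem polyRemoval_of {k l : ℕ} {H : Fin k → Fin l → Bool}
    (h : ∃ (C : ℕ) (K : ℝ), 1 ≤ K ∧ PRemoval C K H) : PolyRemoval H := by
  obtain ⟨C, K, hK, hR⟩ := h
  refine ⟨C, K, by linarith, ?_⟩
  intro n ε hε hε1 A hfar
  exact hR n ε hε hε1 A (fun B hB => hfar B (fun ⟨ρ, γ, hρ, hγ, hc⟩ => hB ρ γ hρ hγ hc))

/-- The base case: alternating words (helper packages of the team, `cm_removal`). -/
theorem base_alt : ∀ (l : ℕ), 2 ≤ l → ∀ u : Fin l → Bool, Alt u →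
    ∃ (C : ℕ) (K : ℝ), 1 ≤ K ∧ PRemoval C K (cm2 u) :=
  fun l hl u hu => cm_removal l hl u hu

/-- Block patterns built from a `2 × 2` pattern (all sixteen are covered). -/
theorem block_case (h : Bool → Bool → Bool) (k l p q : ℕ) (hp : 1 ≤ p) (hpk : p < k)
    (hq : 1 ≤ q) (hql : q < l) :
    ∃ (C : ℕ) (K : ℝ), 1 ≤ K ∧ PRemoval C K (blk h p q k l) :=
  block_removal 44 (2 ^ 236) (by norm_num)
    (fun h11 h12 h21 h22 => removal_two_by_two h11 h12 h21 h22) h k l p q hp hpk hq hql

theorem rows_case (k l p : ℕ) (u : Fin l → Bool) (hl : 2 ≤ l) (hp : 1 ≤ p) (hpk : p < k) :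
    PolyRemoval (fun (i : Fin k) (j : Fin l) => xor (u j) (decide (p ≤ i.val))) := by
  by_cases hu : ∃ a b, u a ≠ u b
  · exact polyRemoval_of (cmBlk_removal base_alt k l p u hu hp hpk)
  · have hc : ∀ a b, u a = u b := by
      intro a b
      by_contra hab
      exact hu ⟨a, b, hab⟩
    have h1 := block_case (fun a _ => xor (u ⟨0, by omega⟩) a) k l p 1 hp hpk (le_refl _)
      (by omega)
    have h2 : blk (fun a _ => xor (u ⟨0, by omega⟩) a) p 1 k l =
        (fun (i : Fin k) (j : Fin l) => xor (u j) (decide (p ≤ i.val))) := by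
      funext i j
      simp only [blk]
      rw [hc j ⟨0, by omega⟩]
    rw [h2] at h1
    exact polyRemoval_of h1

theorem cols_case (k l q : ℕ) (w : Fin k → Bool) (hk : 2 ≤ k) (hq : 1 ≤ q) (hql : q < l) :
    PolyRemoval (fun (i : Fin k) (j : Fin l) => xor (w i) (decide (q ≤ j.val))) := by
  by_cases hw : ∃ a b, w a ≠ w b
  · exact polyRemoval_of (cmBlkT_removal base_alt k l q w hw hq hql)
  · have hc : ∀ a b, w a = w b := by
      intro a b
      by_contra hab
      exact hw ⟨a, b, hab⟩
    have h1 := block_case (fun _ b => xor (w ⟨0, by omega⟩) b) k l 1 q (le_refl _)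
      (by omega) hq hql
    have h2 : blk (fun _ b => xor (w ⟨0, by omega⟩) b) 1 q k l =
        (fun (i : Fin k) (j : Fin l) => xor (w i) (decide (q ≤ j.val))) := by
      funext i j
      simp only [blk]
      rw [hc i ⟨0, by omega⟩]
    rw [h2] at h1
    exact polyRemoval_of h1

/-- **Polynomial removal for patterns with two complementary blocks.**
(1) For every word `u` of length `l ≥ 2`, the two-row pattern `[u ; not u]` (second row is
the entrywise complement of the first) has a polynomial removal bound.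
(2) More generally, for `1 ≤ p < k`, the `k × l` pattern whose rows `0, …, p - 1` all equal
`u` and whose rows `p, …, k - 1` all equal the complement of `u` has one.
(3) The same for columns: for `1 ≤ q < l` and a word `w` of length `k ≥ 2`, the `k × l`
pattern whose columns `0, …, q - 1` all equal `w` and whose columns `q, …, l - 1` all equal
the complement of `w` has one. -/
theorem result :
    (∀ (l : ℕ) (u : Fin l → Bool), 2 ≤ l →
      PolyRemoval (fun (i : Fin 2) (j : Fin l) => if i = 0 then u j else !u j)) ∧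
    (∀ (k l p : ℕ) (u : Fin l → Bool), 2 ≤ l → 1 ≤ p → p < k →
      PolyRemoval (fun (i : Fin k) (j : Fin l) => xor (u j) (decide (p ≤ i.val)))) ∧
    (∀ (k l q : ℕ) (w : Fin k → Bool), 2 ≤ k → 1 ≤ q → q < l →
      PolyRemoval (fun (i : Fin k) (j : Fin l) => xor (w i) (decide (q ≤ j.val)))) := by
  refine ⟨?_, ?_, ?_⟩
  · intro l u hl
    have h1 := rows_case 2 l 1 u hl (le_refl _) (by norm_num)
    have h2 : (fun (i : Fin 2) (j : Fin l) => xor (u j) (decide (1 ≤ i.val))) =
        (fun (i : Fin 2) (j : Fin l) => if i = 0 then u j else !u j) := cmBlk_two u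
    rw [h2] at h1
    exact h1
  · intro k l p u hl hp hpk
    exact rows_case k l p u hl hp hpk
  · intro k l q w hk hq hql
    exact cols_case k l q w hk hq hql

end Vale.Agent.Results.P037.AllComplementaryRows
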