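import Mathlib
import Vale.Agent.Results.P037.AllBlockPatterns
import Vale.Agent.Results.P037.AllComplementaryRows

/-!
# P037: all patterns for which the team has a polynomial removal bound, in one statement

Entries are Booleans.  A pattern is a `k × l` matrix `H : Fin k → Fin l → Bool`; an ordered
copy of `H` in an `n × n` matrix `A` is a pair of strictly increasing maps
`ρ : Fin k → Fin n` (rows) and `γ : Fin l → Fin n` (columns) with `A (ρ i) (γ j) = H i j`.
-/

namespace Vale.Agent.Results.P037.AllBlockAndComplementary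

open Finset

/-- `PolyRemoval H`: the pattern `H` has a polynomial removal bound.  There are an exponent
`C` and a constant `K > 0` such that for every `n`, every `0 < ε ≤ 1` and every binary
`n × n` matrix `A`: if every `n × n` matrix `B` without an ordered copy of `H` differs from
`A` in at least `ε n^2` entries, then `ε^C n^(k+l) ≤ K * N`, where `N` is the number of
ordered copies of `H` in `A`. -/
def PolyRemoval {k l : ℕ} (H : Fin k → Fin l → Bool) : Prop :=
  ∃ (C : ℕ) (K : ℝ), 0 < K ∧ ∀ (n : ℕ) (ε : ℝ), 0 < ε → ε ≤ 1 → ∀ A : Fin n → Fin n → Bool,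
    (∀ B : Fin n → Fin n → Bool,
      (¬ ∃ (ρ : Fin k → Fin n) (γ : Fin l → Fin n), StrictMono ρ ∧ StrictMono γ ∧
        ∀ i j, B (ρ i) (γ j) = H i j) →
      ε * (n : ℝ) ^ 2 ≤
        ((univ.filter fun c : Fin n × Fin n => A c.1 c.2 ≠ B c.1 c.2).card : ℝ)) →
    ε ^ C * (n : ℝ) ^ (k + l) ≤ K *
      ((univ.filter fun t : (Fin k → Fin n) × (Fin l → Fin n) =>
        StrictMono t.1 ∧ StrictMono t.2 ∧ ∀ i j, A (t.1 i) (t.2 j) = H i j).card : ℝ)

/-- **Polynomial removal: block patterns and complementary-block patterns of every size.**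
(1) Every `2 × 2` pattern has a polynomial removal bound.
(2) Every `k × l` block pattern `H i j = h [p ≤ i] [q ≤ j]`, `1 ≤ p < k`, `1 ≤ q < l`, has
one (`h` an arbitrary `2 × 2` pattern).
(3) For every word `u` of length `l ≥ 2` the two-row pattern `[u ; not u]` has one.
(4) For `1 ≤ p < k` the `k × l` pattern whose rows `0, …, p - 1` equal `u` and whose rows
`p, …, k - 1` equal the complement of `u` has one.
(5) For `1 ≤ q < l` the `k × l` pattern whose columns `0, …, q - 1` equal `w` and whose
columns `q, …, l - 1` equal the complement of `w` has one.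
(6) If `H` has a polynomial removal bound, so has every pattern `H'` with one more row that
consists of the rows `0, …, p` of `H` followed by the rows `p, …, k - 1` of `H`.
(7) The same for a repeated column. -/
theorem result :
    (∀ H : Fin 2 → Fin 2 → Bool, PolyRemoval H) ∧
    (∀ (h : Bool → Bool → Bool) (k l p q : ℕ), 1 ≤ p → p < k → 1 ≤ q → q < l →
      PolyRemoval (fun (i : Fin k) (j : Fin l) =>
        h (decide (p ≤ i.val)) (decide (q ≤ j.val)))) ∧
    (∀ (l : ℕ) (u : Fin l → Bool), 2 ≤ l →
      PolyRemoval (fun (i : Fin 2) (j : Fin l) => if i = 0 then u j else !u j)) ∧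
    (∀ (k l p : ℕ) (u : Fin l → Bool), 2 ≤ l → 1 ≤ p → p < k →
      PolyRemoval (fun (i : Fin k) (j : Fin l) => xor (u j) (decide (p ≤ i.val)))) ∧
    (∀ (k l q : ℕ) (w : Fin k → Bool), 2 ≤ k → 1 ≤ q → q < l →
      PolyRemoval (fun (i : Fin k) (j : Fin l) => xor (w i) (decide (q ≤ j.val)))) ∧
    (∀ (k l : ℕ) (H : Fin k → Fin l → Bool) (H' : Fin (k + 1) → Fin l → Bool) (p : Fin k),
      (∀ i : Fin k, i ≤ p → ∀ j, H' i.castSucc j = H i j) →
      (∀ i : Fin k, p ≤ i → ∀ j, H' i.succ j = H i j) →
      PolyRemoval H → PolyRemoval H') ∧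
    (∀ (k l : ℕ) (H : Fin k → Fin l → Bool) (H' : Fin k → Fin (l + 1) → Bool) (q : Fin l),
      (∀ j : Fin l, j ≤ q → ∀ i, H' i j.castSucc = H i j) →
      (∀ j : Fin l, q ≤ j → ∀ i, H' i j.succ = H i j) →
      PolyRemoval H → PolyRemoval H') := by
  obtain ⟨h1, h2, h3, h4⟩ := Vale.Agent.Results.P037.AllBlockPatterns.result
  obtain ⟨h5, h6, h7⟩ := Vale.Agent.Results.P037.AllComplementaryRows.result
  exact ⟨h1, h4, h5, h6, h7, h2, h3⟩

end Vale.Agent.Results.P037.AllBlockAndComplementary
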