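import Mathlib
import Vale.Agent.Lib.P037.ERemoval

namespace Vale.Agent.Results.P037.AllTwoByTwo

open Finset

/-- **Polynomial removal lemma for every ordered 2 x 2 binary pattern, on arbitrary hosts.**
Let `H` be any binary 2 x 2 matrix, with entries `H 0 0, H 0 1` in its first row and
`H 1 0, H 1 1` in its second row (`true` is the entry one, `false` the entry zero).  Let `A`
be a binary `n x n` matrix and `0 < ε ≤ 1`.  Suppose `A` is `ε`-far from `H`-free: every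
binary `n x n` matrix `B` without an ordered copy of `H` (rows `r1 < r2`, columns `c1 < c2`
whose four entries read `H`) differs from `A` in at least `ε * n ^ 2` entries.  Then the
number of ordered copies of `H` in `A` is at least `ε ^ 44 * n ^ 4 / 2 ^ 236`. -/
theorem result (H : Fin 2 → Fin 2 → Bool) (n : ℕ) (ε : ℝ) (hε : 0 < ε) (hε1 : ε ≤ 1)
    (A : Fin n → Fin n → Bool)
    (hfar : ∀ B : Fin n → Fin n → Bool,
      (∀ r1 r2 c1 c2 : Fin n, r1 < r2 → c1 < c2 →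
        ¬ (B r1 c1 = H 0 0 ∧ B r1 c2 = H 0 1 ∧ B r2 c1 = H 1 0 ∧ B r2 c2 = H 1 1)) →
      ε * (n : ℝ) ^ 2 ≤
        ((univ.filter fun p : Fin n × Fin n => A p.1 p.2 ≠ B p.1 p.2).card : ℝ)) :
    ε ^ 44 * (n : ℝ) ^ 4 ≤ 2 ^ 236 *
      ((univ.filter fun t : Fin n × Fin n × Fin n × Fin n =>
        t.1 < t.2.1 ∧ t.2.2.1 < t.2.2.2 ∧ A t.1 t.2.2.1 = H 0 0 ∧ A t.1 t.2.2.2 = H 0 1 ∧
          A t.2.1 t.2.2.1 = H 1 0 ∧ A t.2.1 t.2.2.2 = H 1 1).card : ℝ) :=
  Vale.Agent.Lib.P037.removal_two_by_two (H 0 0) (H 0 1) (H 1 0) (H 1 1) n ε hε hε1 A hfar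

end Vale.Agent.Results.P037.AllTwoByTwo
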