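import Mathlib

/-!
# P037 (ordered binary matrix removal): `2 × 2` patterns in hosts with few distinct rows

Let `H` be a binary `2 × 2` pattern for which some value `v` is missing from no row and no
column of `H` (every row and every column of `H` has an entry different from `v`). Let `A` be a
binary `n × n` matrix whose rows take at most `r` distinct values. If every `H`-free matrix
differs from `A` in at least `ε n ^ 2` entries, then `A` contains at least
`ε ^ 4 n ^ 4 / (64 r ^ 8)` ordered copies of `H`.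

The proof replaces a set of rows and a set of columns of `A` by the constant value `v`.
Constant rows and columns lie in no copy of `H`. For each ordered pair of row values the rows to
delete are chosen by a threshold, or else the columns are.
-/

namespace Vale.Agent.Results.P037.BoundedRows

open Finset

/-- Rows `x < y` and columns `p < q` of `A` carry an ordered copy of the `2 × 2` pattern `H`. -/
def IsCopy {n : ℕ} (H : Fin 2 → Fin 2 → Bool) (A : Fin n → Fin n → Bool)
    (x y p q : Fin n) : Prop :=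
  x < y ∧ p < q ∧ A x p = H 0 0 ∧ A x q = H 0 1 ∧ A y p = H 1 0 ∧ A y q = H 1 1

open Classical in
/-- The number of ordered copies of `H` in `A`. -/
noncomputable def copies {n : ℕ} (H : Fin 2 → Fin 2 → Bool) (A : Fin n → Fin n → Bool) : ℕ :=
  ((univ : Finset (Fin n × Fin n × Fin n × Fin n)).filter
    (fun t => IsCopy H A t.1 t.2.1 t.2.2.1 t.2.2.2)).card

/-- `B` contains no ordered copy of `H`. -/
def HFree {n : ℕ} (H : Fin 2 → Fin 2 → Bool) (B : Fin n → Fin n → Bool) : Prop :=
  ∀ x y p q : Fin n, ¬ IsCopy H B x y p q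

/-- The number of entries in which `A` and `B` differ. -/
def diff {n : ℕ} (A B : Fin n → Fin n → Bool) : ℕ :=
  ((univ : Finset (Fin n × Fin n)).filter (fun e => A e.1 e.2 ≠ B e.1 e.2)).card

/-- Threshold covers: the pairs `x < y` with `x ∈ X`, `y ∈ Y` can be hit by a set `S` with
`|S| ^ 2` at most eight times the number of such pairs. -/
theorem cover_lemma {n : ℕ} (X Y : Finset (Fin n)) :
    ∃ S : Finset (Fin n), (∀ x ∈ X, ∀ y ∈ Y, x < y → x ∈ S ∨ y ∈ S) ∧
      S.card ^ 2 ≤ 8 * ((X ×ˢ Y).filter (fun e => e.1 < e.2)).card := by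
  classical
  set E := (X ×ˢ Y).filter (fun e => e.1 < e.2) with hE
  by_cases hE0 : E = ∅
  · refine ⟨∅, ?_, by simp⟩
    intro x hx y hy hxy
    exfalso
    have hmem : (x, y) ∈ E := by
      rw [hE, mem_filter, mem_product]
      exact ⟨⟨hx, hy⟩, hxy⟩
    rw [hE0] at hmem
    exact absurd hmem (notMem_empty _)
  · have hEpos : 1 ≤ E.card := Finset.card_pos.mpr (Finset.nonempty_iff_ne_empty.mpr hE0)
    let a : ℕ → ℕ := fun θ => (X.filter (fun x : Fin n => x.val < θ)).card
    let b : ℕ → ℕ := fun θ => (Y.filter (fun y : Fin n => θ ≤ y.val)).card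
    have key : ∀ θ : ℕ, ∀ x ∈ X, ∀ y ∈ Y, x < y →
        x ∈ X.filter (fun x : Fin n => x.val < θ) ∪ Y.filter (fun y : Fin n => θ ≤ y.val) ∨
        y ∈ X.filter (fun x : Fin n => x.val < θ) ∪ Y.filter (fun y : Fin n => θ ≤ y.val) := by
      intro θ x hx y hy hxy
      by_cases h : x.val < θ
      · left
        exact mem_union_left _ (mem_filter.mpr ⟨hx, h⟩)
      · right
        refine mem_union_right _ (mem_filter.mpr ⟨hy, ?_⟩)
        have hlt : x.val < y.val := hxy
        omega
    have hab : ∀ θ, a θ * b θ ≤ E.card := by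
      intro θ
      have hsub : (X.filter (fun x : Fin n => x.val < θ)) ×ˢ (Y.filter (fun y : Fin n => θ ≤ y.val)) ⊆ E := by
        intro e he
        rw [mem_product, mem_filter, mem_filter] at he
        rw [hE, mem_filter, mem_product]
        refine ⟨⟨he.1.1, he.2.1⟩, ?_⟩
        have h1 := he.1.2
        have h2 := he.2.2
        exact Fin.lt_def.mpr (by omega)
      calc a θ * b θ
          = ((X.filter (fun x : Fin n => x.val < θ)) ×ˢ (Y.filter (fun y : Fin n => θ ≤ y.val))).card := by
            rw [card_product]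
        _ ≤ E.card := card_le_card hsub
    have hcard : ∀ θ,
        (X.filter (fun x : Fin n => x.val < θ) ∪ Y.filter (fun y : Fin n => θ ≤ y.val)).card ≤ a θ + b θ :=
      fun θ => card_union_le _ _
    have ha_step : ∀ θ, a (θ + 1) ≤ a θ + 1 := by
      intro θ
      have hsub : X.filter (fun x : Fin n => x.val < θ + 1) ⊆
          X.filter (fun x : Fin n => x.val < θ) ∪ X.filter (fun x : Fin n => x.val = θ) := by
        intro x hx
        rw [mem_filter] at hx
        rw [mem_union, mem_filter, mem_filter]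
        by_cases h : x.val < θ
        · left
          exact ⟨hx.1, h⟩
        · right
          exact ⟨hx.1, by omega⟩
      have hone : (X.filter (fun x : Fin n => x.val = θ)).card ≤ 1 := by
        rw [card_le_one]
        intro x hx y hy
        rw [mem_filter] at hx hy
        exact Fin.ext (by omega)
      calc a (θ + 1)
          ≤ (X.filter (fun x : Fin n => x.val < θ) ∪ X.filter (fun x : Fin n => x.val = θ)).card :=
            card_le_card hsub
        _ ≤ a θ + (X.filter (fun x : Fin n => x.val = θ)).card := card_union_le _ _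
        _ ≤ a θ + 1 := by omega
    have hb_step : ∀ θ, b θ ≤ b (θ + 1) + 1 := by
      intro θ
      have hsub : Y.filter (fun y : Fin n => θ ≤ y.val) ⊆
          Y.filter (fun y : Fin n => θ + 1 ≤ y.val) ∪ Y.filter (fun y : Fin n => y.val = θ) := by
        intro y hy
        rw [mem_filter] at hy
        rw [mem_union, mem_filter, mem_filter]
        by_cases h : θ + 1 ≤ y.val
        · left
          exact ⟨hy.1, h⟩
        · right
          exact ⟨hy.1, by omega⟩
      have hone : (Y.filter (fun y : Fin n => y.val = θ)).card ≤ 1 := by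
        rw [card_le_one]
        intro x hx y hy
        rw [mem_filter] at hx hy
        exact Fin.ext (by omega)
      calc b θ
          ≤ (Y.filter (fun y : Fin n => θ + 1 ≤ y.val) ∪ Y.filter (fun y : Fin n => y.val = θ)).card :=
            card_le_card hsub
        _ ≤ b (θ + 1) + (Y.filter (fun y : Fin n => y.val = θ)).card := card_union_le _ _
        _ ≤ b (θ + 1) + 1 := by omega
    have hex : ∃ θ, b θ ≤ a θ := by
      refine ⟨n, ?_⟩
      have hbn : b n = 0 := by
        show (Y.filter (fun y : Fin n => n ≤ y.val)).card = 0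
        rw [card_eq_zero, filter_eq_empty_iff]
        intro y _
        have := y.isLt
        omega
      omega
    obtain ⟨θ1, h1, hmin⟩ : ∃ θ1, b θ1 ≤ a θ1 ∧ ∀ θ < θ1, ¬ b θ ≤ a θ :=
      ⟨Nat.find hex, Nat.find_spec hex, fun θ hθ => Nat.find_min hex hθ⟩
    rcases Nat.eq_zero_or_pos θ1 with h0 | hpos
    · refine ⟨∅, ?_, by simp⟩
      intro x hx y hy hxy
      exfalso
      have ha0 : a 0 = 0 := by
        show (X.filter (fun x : Fin n => x.val < 0)).card = 0
        rw [card_eq_zero, filter_eq_empty_iff]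
        intro x _
        omega
      have hb0 : b 0 = Y.card := by
        show (Y.filter (fun y : Fin n => 0 ≤ y.val)).card = Y.card
        congr 1
        rw [filter_eq_self]
        intro y _
        omega
      rw [h0] at h1
      have hY : Y.card = 0 := by omega
      rw [card_eq_zero] at hY
      rw [hY] at hy
      exact absurd hy (notMem_empty _)
    · obtain ⟨θ0, rfl⟩ : ∃ θ0, θ1 = θ0 + 1 := ⟨θ1 - 1, by omega⟩
      have hlt : a θ0 < b θ0 := by
        have := hmin θ0 (by omega)
        omega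
      have h2 : b θ0 ≤ a θ0 + 2 := by
        have := hb_step θ0
        have := ha_step θ0
        omega
      refine ⟨X.filter (fun x : Fin n => x.val < θ0) ∪ Y.filter (fun y : Fin n => θ0 ≤ y.val), key θ0, ?_⟩
      have hc := hcard θ0
      have he := hab θ0
      rcases Nat.eq_zero_or_pos (a θ0) with ha0 | hapos
      · have hs2 : (X.filter (fun x : Fin n => x.val < θ0) ∪ Y.filter (fun y : Fin n => θ0 ≤ y.val)).card ≤ 2 := by
          omega
        calc _ ≤ 2 ^ 2 := Nat.pow_le_pow_left hs2 2
          _ ≤ 8 * E.card := by omega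
      · have hs : (X.filter (fun x : Fin n => x.val < θ0) ∪ Y.filter (fun y : Fin n => θ0 ≤ y.val)).card
            ≤ 2 * a θ0 + 2 := by omega
        have hprod : a θ0 * (a θ0 + 1) ≤ a θ0 * b θ0 := Nat.mul_le_mul_left _ (by omega)
        calc _ ≤ (2 * a θ0 + 2) ^ 2 := Nat.pow_le_pow_left hs 2
          _ ≤ 8 * (a θ0 * (a θ0 + 1)) := by nlinarith
          _ ≤ 8 * E.card := by omega

/-- Constructive form: some `H`-free matrix `B` differs from `A` in at most
`(64 r ^ 8 n ^ 4 N) ^ (1 / 4)` entries, where `r` is the number of distinct rows of `A` and `N`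
the number of copies of `H` in `A`. -/
theorem exists_close_free {n : ℕ} (A : Fin n → Fin n → Bool) (H : Fin 2 → Fin 2 → Bool)
    (v : Bool) (hrow : ∀ i, ∃ j, H i j ≠ v) (hcol : ∀ j, ∃ i, H i j ≠ v) :
    ∃ B : Fin n → Fin n → Bool, HFree H B ∧
      (diff A B) ^ 4 ≤ 64 * ((univ : Finset (Fin n)).image A).card ^ 8 * n ^ 4 * copies H A := by
  classical
  set T := (univ : Finset (Fin n)).image A with hT
  let XR : (Fin n → Bool) → Finset (Fin n) := fun u => univ.filter (fun x => A x = u)
  let XC : (Fin n → Bool) × (Fin n → Bool) → Finset (Fin n) :=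
    fun uw => univ.filter (fun p => uw.1 p = H 0 0 ∧ uw.2 p = H 1 0)
  let YC : (Fin n → Bool) × (Fin n → Bool) → Finset (Fin n) :=
    fun uw => univ.filter (fun q => uw.1 q = H 0 1 ∧ uw.2 q = H 1 1)
  let ER : (Fin n → Bool) × (Fin n → Bool) → Finset (Fin n × Fin n) :=
    fun uw => ((XR uw.1) ×ˢ (XR uw.2)).filter (fun e => e.1 < e.2)
  let EC : (Fin n → Bool) × (Fin n → Bool) → Finset (Fin n × Fin n) :=
    fun uw => ((XC uw) ×ˢ (YC uw)).filter (fun e => e.1 < e.2)
  choose SR hSRcov hSRcard using
    fun uw : (Fin n → Bool) × (Fin n → Bool) => cover_lemma (XR uw.1) (XR uw.2)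
  choose SC hSCcov hSCcard using
    fun uw : (Fin n → Bool) × (Fin n → Bool) => cover_lemma (XC uw) (YC uw)
  have hcount : ∀ uw, (ER uw).card * (EC uw).card ≤ copies H A := by
    intro uw
    unfold copies
    rw [← card_product]
    apply card_le_card_of_injOn
      (fun e : (Fin n × Fin n) × (Fin n × Fin n) => (e.1.1, e.1.2, e.2.1, e.2.2))
    · intro e he
      have he' := mem_product.mp (mem_coe.mp he)
      obtain ⟨he1, he2⟩ := he'
      have h1 := mem_filter.mp he1
      have h2 := mem_filter.mp he2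
      have h1' := mem_product.mp h1.1
      have h2' := mem_product.mp h2.1
      have hx : A e.1.1 = uw.1 := (mem_filter.mp h1'.1).2
      have hy : A e.1.2 = uw.2 := (mem_filter.mp h1'.2).2
      have hp := (mem_filter.mp h2'.1).2
      have hq := (mem_filter.mp h2'.2).2
      refine mem_coe.mpr (mem_filter.mpr ⟨mem_univ _, ?_⟩)
      refine ⟨h1.2, h2.2, ?_, ?_, ?_, ?_⟩
      · show A e.1.1 e.2.1 = H 0 0
        rw [hx]; exact hp.1
      · show A e.1.1 e.2.2 = H 0 1
        rw [hx]; exact hq.1
      · show A e.1.2 e.2.1 = H 1 0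
        rw [hy]; exact hp.2
      · show A e.1.2 e.2.2 = H 1 1
        rw [hy]; exact hq.2
    · intro e1 _ e2 _ h
      simp only [Prod.mk.injEq] at h
      exact Prod.ext (Prod.ext h.1 h.2.1) (Prod.ext h.2.2.1 h.2.2.2)
  let DR : Finset (Fin n) :=
    (T ×ˢ T).biUnion (fun uw => if (SR uw).card ≤ (SC uw).card then SR uw else ∅)
  let DC : Finset (Fin n) :=
    (T ×ˢ T).biUnion (fun uw => if (SR uw).card ≤ (SC uw).card then ∅ else SC uw)
  let B : Fin n → Fin n → Bool := fun x p => if x ∈ DR ∨ p ∈ DC then v else A x p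
  have hBv : ∀ x p, (x ∈ DR ∨ p ∈ DC) → B x p = v := by
    intro x p h
    show (if x ∈ DR ∨ p ∈ DC then v else A x p) = v
    rw [if_pos h]
  have hBA : ∀ x p, x ∉ DR → p ∉ DC → B x p = A x p := by
    intro x p hx hp
    show (if x ∈ DR ∨ p ∈ DC then v else A x p) = A x p
    rw [if_neg (by tauto)]
  have hBfree : HFree H B := by
    intro x y p q hc
    obtain ⟨hxy, hpq, h00, h01, h10, h11⟩ := hc
    have hx : x ∉ DR := by
      intro hx
      obtain ⟨j, hj⟩ := hrow 0
      apply hj
      have e0 : B x p = v := hBv x p (Or.inl hx)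
      have e1 : B x q = v := hBv x q (Or.inl hx)
      fin_cases j
      · exact h00.symm.trans e0
      · exact h01.symm.trans e1
    have hy : y ∉ DR := by
      intro hy
      obtain ⟨j, hj⟩ := hrow 1
      apply hj
      have e0 : B y p = v := hBv y p (Or.inl hy)
      have e1 : B y q = v := hBv y q (Or.inl hy)
      fin_cases j
      · exact h10.symm.trans e0
      · exact h11.symm.trans e1
    have hp : p ∉ DC := by
      intro hp
      obtain ⟨i, hi⟩ := hcol 0
      apply hi
      have e0 : B x p = v := hBv x p (Or.inr hp)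
      have e1 : B y p = v := hBv y p (Or.inr hp)
      fin_cases i
      · exact h00.symm.trans e0
      · exact h10.symm.trans e1
    have hq : q ∉ DC := by
      intro hq
      obtain ⟨i, hi⟩ := hcol 1
      apply hi
      have e0 : B x q = v := hBv x q (Or.inr hq)
      have e1 : B y q = v := hBv y q (Or.inr hq)
      fin_cases i
      · exact h01.symm.trans e0
      · exact h11.symm.trans e1
    have a00 : A x p = H 0 0 := (hBA x p hx hp).symm.trans h00
    have a01 : A x q = H 0 1 := (hBA x q hx hq).symm.trans h01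
    have a10 : A y p = H 1 0 := (hBA y p hy hp).symm.trans h10
    have a11 : A y q = H 1 1 := (hBA y q hy hq).symm.trans h11
    have hmem : (A x, A y) ∈ T ×ˢ T :=
      mem_product.mpr ⟨mem_image_of_mem A (mem_univ x), mem_image_of_mem A (mem_univ y)⟩
    by_cases hmode : (SR (A x, A y)).card ≤ (SC (A x, A y)).card
    · have hcov := hSRcov (A x, A y) x (mem_filter.mpr ⟨mem_univ x, rfl⟩) y
        (mem_filter.mpr ⟨mem_univ y, rfl⟩) hxy
      rcases hcov with h | h
      · exact hx (mem_biUnion.mpr ⟨(A x, A y), hmem, by rw [if_pos hmode]; exact h⟩)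
      · exact hy (mem_biUnion.mpr ⟨(A x, A y), hmem, by rw [if_pos hmode]; exact h⟩)
    · have hcov := hSCcov (A x, A y) p (mem_filter.mpr ⟨mem_univ p, a00, a10⟩) q
        (mem_filter.mpr ⟨mem_univ q, a01, a11⟩) hpq
      rcases hcov with h | h
      · exact hp (mem_biUnion.mpr ⟨(A x, A y), hmem, by rw [if_neg hmode]; exact h⟩)
      · exact hq (mem_biUnion.mpr ⟨(A x, A y), hmem, by rw [if_neg hmode]; exact h⟩)
  have hdiff : diff A B ≤ (DR.card + DC.card) * n := by
    unfold diff
    have hsub : (univ.filter (fun e : Fin n × Fin n => A e.1 e.2 ≠ B e.1 e.2)) ⊆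
        (DR ×ˢ (univ : Finset (Fin n))) ∪ ((univ : Finset (Fin n)) ×ˢ DC) := by
      intro e he
      rw [mem_filter] at he
      rw [mem_union, mem_product, mem_product]
      by_contra hcon
      rw [not_or] at hcon
      apply he.2
      have h1 : e.1 ∉ DR := fun h => hcon.1 ⟨h, mem_univ _⟩
      have h2 : e.2 ∉ DC := fun h => hcon.2 ⟨mem_univ _, h⟩
      exact (hBA e.1 e.2 h1 h2).symm
    calc (univ.filter (fun e : Fin n × Fin n => A e.1 e.2 ≠ B e.1 e.2)).card
        ≤ ((DR ×ˢ (univ : Finset (Fin n))) ∪ ((univ : Finset (Fin n)) ×ˢ DC)).card :=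
          card_le_card hsub
      _ ≤ (DR ×ˢ (univ : Finset (Fin n))).card + ((univ : Finset (Fin n)) ×ˢ DC).card :=
          card_union_le _ _
      _ = DR.card * n + n * DC.card := by
          rw [card_product, card_product, card_univ, Fintype.card_fin]
      _ = (DR.card + DC.card) * n := by ring
  let m : (Fin n → Bool) × (Fin n → Bool) → ℕ := fun uw => min (SR uw).card (SC uw).card
  have hm4 : ∀ uw, (m uw) ^ 4 ≤ 64 * copies H A := by
    intro uw
    have h1 : (SR uw).card ^ 2 ≤ 8 * (ER uw).card := hSRcard uw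
    have h2 : (SC uw).card ^ 2 ≤ 8 * (EC uw).card := hSCcard uw
    have h3 := hcount uw
    have hmin1 : m uw ≤ (SR uw).card := min_le_left _ _
    have hmin2 : m uw ≤ (SC uw).card := min_le_right _ _
    calc (m uw) ^ 4 = (m uw) ^ 2 * (m uw) ^ 2 := by ring
      _ ≤ (SR uw).card ^ 2 * (SC uw).card ^ 2 :=
          Nat.mul_le_mul (Nat.pow_le_pow_left hmin1 2) (Nat.pow_le_pow_left hmin2 2)
      _ ≤ (8 * (ER uw).card) * (8 * (EC uw).card) := Nat.mul_le_mul h1 h2
      _ = 64 * ((ER uw).card * (EC uw).card) := by ring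
      _ ≤ 64 * copies H A := Nat.mul_le_mul_left 64 h3
  have hDsum : DR.card + DC.card ≤ ∑ uw ∈ T ×ˢ T, m uw := by
    have h1 : DR.card ≤
        ∑ uw ∈ T ×ˢ T, (if (SR uw).card ≤ (SC uw).card then SR uw else ∅).card :=
      card_biUnion_le
    have h2 : DC.card ≤
        ∑ uw ∈ T ×ˢ T, (if (SR uw).card ≤ (SC uw).card then ∅ else SC uw).card :=
      card_biUnion_le
    calc DR.card + DC.card
        ≤ ∑ uw ∈ T ×ˢ T, (if (SR uw).card ≤ (SC uw).card then SR uw else ∅).card +
          ∑ uw ∈ T ×ˢ T, (if (SR uw).card ≤ (SC uw).card then ∅ else SC uw).card :=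
          Nat.add_le_add h1 h2
      _ = ∑ uw ∈ T ×ˢ T, ((if (SR uw).card ≤ (SC uw).card then SR uw else ∅).card +
            (if (SR uw).card ≤ (SC uw).card then ∅ else SC uw).card) := sum_add_distrib.symm
      _ = ∑ uw ∈ T ×ˢ T, m uw := by
          apply sum_congr rfl
          intro uw _
          show _ = min (SR uw).card (SC uw).card
          by_cases h : (SR uw).card ≤ (SC uw).card
          · rw [if_pos h, if_pos h, card_empty, min_eq_left h, add_zero]
          · rw [if_neg h, if_neg h, card_empty, min_eq_right (by omega), zero_add]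
  have hfinal : (DR.card + DC.card) ^ 4 ≤ 64 * T.card ^ 8 * copies H A := by
    rcases (T ×ˢ T).eq_empty_or_nonempty with hemp | hne
    · have hz : DR.card + DC.card = 0 := by
        have h := hDsum
        rw [hemp, sum_empty] at h
        omega
      rw [hz]
      exact Nat.zero_le _
    · obtain ⟨uw0, _, hmax⟩ := exists_max_image (T ×ˢ T) m hne
      have hsum : ∑ uw ∈ T ×ˢ T, m uw ≤ (T ×ˢ T).card * m uw0 := by
        have h := sum_le_card_nsmul (T ×ˢ T) m (m uw0) hmax
        rwa [smul_eq_mul] at h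
      have hc : (T ×ˢ T).card = T.card ^ 2 := by
        rw [card_product]; ring
      calc (DR.card + DC.card) ^ 4 ≤ ((T ×ˢ T).card * m uw0) ^ 4 :=
            Nat.pow_le_pow_left (hDsum.trans hsum) 4
        _ = (T.card ^ 2) ^ 4 * (m uw0) ^ 4 := by rw [hc, mul_pow]
        _ ≤ (T.card ^ 2) ^ 4 * (64 * copies H A) := Nat.mul_le_mul_left _ (hm4 uw0)
        _ = 64 * T.card ^ 8 * copies H A := by ring
  refine ⟨B, hBfree, ?_⟩
  calc (diff A B) ^ 4 ≤ ((DR.card + DC.card) * n) ^ 4 := Nat.pow_le_pow_left hdiff 4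
    _ = (DR.card + DC.card) ^ 4 * n ^ 4 := mul_pow _ _ _
    _ ≤ (64 * T.card ^ 8 * copies H A) * n ^ 4 := Nat.mul_le_mul_right _ hfinal
    _ = 64 * T.card ^ 8 * n ^ 4 * copies H A := by ring

/-- **Polynomial removal for `2 × 2` patterns in hosts with at most `r` distinct rows.**
Let `H` be a binary `2 × 2` pattern and `v` a value such that every row and every column of
`H` has an entry different from `v`. Let `A` be a binary `n × n` matrix whose rows take at most
`r` distinct values, and suppose every `H`-free `n × n` matrix differs from `A` in at least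
`ε n ^ 2` entries. Then `A` has at least `ε ^ 4 n ^ 4 / (64 r ^ 8)` ordered copies of `H`. -/
theorem result (n r : ℕ) (A : Fin n → Fin n → Bool) (H : Fin 2 → Fin 2 → Bool) (v : Bool)
    (hrow : ∀ i, ∃ j, H i j ≠ v) (hcol : ∀ j, ∃ i, H i j ≠ v)
    (hr : ((Finset.univ : Finset (Fin n)).image A).card ≤ r)
    (ε : ℝ) (hε : 0 ≤ ε)
    (hfar : ∀ B : Fin n → Fin n → Bool, HFree H B → ε * (n : ℝ) ^ 2 ≤ (diff A B : ℝ)) :
    ε ^ 4 * (n : ℝ) ^ 4 ≤ 64 * (r : ℝ) ^ 8 * (copies H A : ℝ) := by
  obtain ⟨B, hB, hd⟩ := exists_close_free A H v hrow hcol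
  have h1 := hfar B hB
  have h2 : (diff A B : ℝ) ^ 4 ≤ 64 * (r : ℝ) ^ 8 * (n : ℝ) ^ 4 * (copies H A : ℝ) := by
    have hnat : (diff A B) ^ 4 ≤ 64 * r ^ 8 * n ^ 4 * copies H A := by
      calc (diff A B) ^ 4
          ≤ 64 * ((univ : Finset (Fin n)).image A).card ^ 8 * n ^ 4 * copies H A := hd
        _ ≤ 64 * r ^ 8 * n ^ 4 * copies H A := by gcongr
    exact_mod_cast hnat
  have h3 : (ε * (n : ℝ) ^ 2) ^ 4 ≤ (diff A B : ℝ) ^ 4 :=
    pow_le_pow_left₀ (by positivity) h1 4
  rcases Nat.eq_zero_or_pos n with hn | hn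
  · subst hn
    have : (0 : ℝ) ≤ 64 * (r : ℝ) ^ 8 * (copies H A : ℝ) := by positivity
    simpa using this
  · have hn' : (0 : ℝ) < (n : ℝ) ^ 4 := by positivity
    have hmul : (n : ℝ) ^ 4 * (ε ^ 4 * (n : ℝ) ^ 4) ≤
        (n : ℝ) ^ 4 * (64 * (r : ℝ) ^ 8 * (copies H A : ℝ)) := by
      calc (n : ℝ) ^ 4 * (ε ^ 4 * (n : ℝ) ^ 4) = (ε * (n : ℝ) ^ 2) ^ 4 := by ring
        _ ≤ (diff A B : ℝ) ^ 4 := h3
        _ ≤ 64 * (r : ℝ) ^ 8 * (n : ℝ) ^ 4 * (copies H A : ℝ) := h2
        _ = (n : ℝ) ^ 4 * (64 * (r : ℝ) ^ 8 * (copies H A : ℝ)) := by ring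
    exact le_of_mul_le_mul_left hmul hn'

end Vale.Agent.Results.P037.BoundedRows
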