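import Mathlib
import Vale.Agent.Lib.P037.EPatBound
import Vale.Agent.Lib.P037.EFin

namespace Vale.Agent.Results.P037.EPattern

open Finset

/-- **Polynomial removal lemma for the 2 x 2 pattern `1 0 / 0 0` in arbitrary ordered binary
matrices.**  Let `A` be a binary `n x n` matrix (`true` is the entry one, `false` the entry
zero) and `0 < ε ≤ 1`.  Suppose `A` is `ε`-far from being free of the pattern: every binary
`n x n` matrix `B` without an ordered copy of the pattern `1 0 / 0 0` (rows `r1 < r2`, columns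
`c1 < c2`, entries `1, 0` in row `r1` and `0, 0` in row `r2`) differs from `A` in at least
`ε * n ^ 2` entries.  Then the number of ordered copies of the pattern in `A` is at least
`ε ^ 16 * n ^ 4 / 2 ^ 88`. -/
theorem result (n : ℕ) (ε : ℝ) (hε : 0 < ε) (hε1 : ε ≤ 1) (A : Fin n → Fin n → Bool)
    (hfar : ∀ B : Fin n → Fin n → Bool,
      (∀ r1 r2 c1 c2 : Fin n, r1 < r2 → c1 < c2 →
        ¬ (B r1 c1 = true ∧ B r1 c2 = false ∧ B r2 c1 = false ∧ B r2 c2 = false)) →
      ε * (n : ℝ) ^ 2 ≤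
        ((univ.filter fun p : Fin n × Fin n => A p.1 p.2 ≠ B p.1 p.2).card : ℝ)) :
    ε ^ 16 * (n : ℝ) ^ 4 ≤ 2 ^ 88 *
      ((univ.filter fun t : Fin n × Fin n × Fin n × Fin n =>
        t.1 < t.2.1 ∧ t.2.2.1 < t.2.2.2 ∧ A t.1 t.2.2.1 = true ∧ A t.1 t.2.2.2 = false ∧
          A t.2.1 t.2.2.1 = false ∧ A t.2.1 t.2.2.2 = false).card : ℝ) := by
  have hN : Vale.Agent.Lib.P037.eCop A = univ.filter fun t : Fin n × Fin n × Fin n × Fin n =>
        t.1 < t.2.1 ∧ t.2.2.1 < t.2.2.2 ∧ A t.1 t.2.2.1 = true ∧ A t.1 t.2.2.2 = false ∧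
          A t.2.1 t.2.2.1 = false ∧ A t.2.1 t.2.2.2 = false := rfl
  rw [← hN]
  exact Vale.Agent.Lib.P037.EFin.e_real_of_core
    (fun B : Fin n → Fin n → Bool => ∀ r r' x y : Fin n, r < r' → x < y →
      ¬ (B r x = true ∧ B r y = false ∧ B r' x = false ∧ B r' y = false))
    (fun B : Fin n → Fin n → Bool =>
      (univ.filter fun p : Fin n × Fin n => A p.1 p.2 ≠ B p.1 p.2).card)
    (Vale.Agent.Lib.P037.eCop A).card
    (fun q s L hL => Vale.Agent.Lib.P037.EPat.core_bound A q s L hL)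
    (by rw [hN]; exact Vale.Agent.Lib.P037.EFin.small_case A)
    ε hε hε1 hfar

end Vale.Agent.Results.P037.EPattern
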