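import Mathlib
import Vale.Agent.Lib.P037.PermPatterns

namespace Vale.Agent.Results.P037.PermutationPatterns

open Finset

/-- **Polynomial removal lemma for both 2 x 2 permutation patterns in arbitrary ordered binary
matrices.**  For `s = true` the pattern is the identity `1 0 / 0 1`, for `s = false` it is
`0 1 / 1 0`; in both cases an ordered copy in a binary `n x n` matrix is a choice of rows
`r1 < r2` and columns `c1 < c2` with entries `s, !s, !s, s` at `(r1,c1), (r1,c2), (r2,c1),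
(r2,c2)`.  Let `A` be a binary `n x n` matrix and `0 < ε ≤ 1`.  If every binary `n x n`
matrix `B` without an ordered copy of the pattern differs from `A` in at least `ε * n ^ 2`
entries, then the number of ordered copies of the pattern in `A` is at least
`ε ^ 44 * n ^ 4 / 2 ^ 236`. -/
theorem result (s : Bool) (n : ℕ) (ε : ℝ) (hε : 0 < ε) (hε1 : ε ≤ 1)
    (A : Fin n → Fin n → Bool)
    (hfar : ∀ B : Fin n → Fin n → Bool,
      (∀ r1 r2 c1 c2 : Fin n, r1 < r2 → c1 < c2 →
        ¬ (B r1 c1 = s ∧ B r1 c2 = !s ∧ B r2 c1 = !s ∧ B r2 c2 = s)) →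
      ε * (n : ℝ) ^ 2 ≤
        ((Finset.univ.filter fun p : Fin n × Fin n => A p.1 p.2 ≠ B p.1 p.2).card : ℝ)) :
    ε ^ 44 * (n : ℝ) ^ 4 ≤ 2 ^ 236 *
      ((Finset.univ.filter fun t : Fin n × Fin n × Fin n × Fin n =>
        t.1 < t.2.1 ∧ t.2.2.1 < t.2.2.2 ∧ A t.1 t.2.2.1 = s ∧ A t.1 t.2.2.2 = !s ∧
          A t.2.1 t.2.2.1 = !s ∧ A t.2.1 t.2.2.2 = s).card : ℝ) :=
  Vale.Agent.Lib.P037.perm_removal s n ε hε hε1 A hfar

end Vale.Agent.Results.P037.PermutationPatterns
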